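import Vale.Agent.P032.S5.H360.Match
import Vale.Agent.P032.S5.H287.HMTop
import Vale.Agent.P032.S5.H585.Pinch

/-!
# P032: two harmless points at distance one

`Harm.pair` : `x`, `z` harmless (arc pairs `A`, `A'`), `dist x z = 1`, `T x` minimal sufficient near
`x`.  If the complementary pair `T z \ A'` is contained in `T x` then it is the arc pair `A` of `x` or
the complementary pair `T x \ A` of `x`.
-/

open Set Filter Topology Metric

noncomputable section

namespace Vale.Agent.P032.Six

variable {k : ℕ} {U : Fin k → Set ℂ} {T : ℂ → Set (Fin k)}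

namespace Harm

/-- near a harmless point the two colours of the arc pair are together only at points with the full
palette -/
theorem layer (h : Irr U T) {x : ℂ} {A : Set (Fin k)} (hx : Harm T x A) :
    ∀ᶠ w in 𝓝 x, A ⊆ T w → T w = T x := by
  obtain ⟨p, hp, hJ⟩ := hx.arc
  have hpA : T p = A := hJ.self_of_nhdsWithin hp
  filter_upwards [h.no_layer hp, h.nhd x] with w h1 h2 hA
  refine Set.eq_of_subset_of_ncard_le h2 ?_ (Set.toFinite _)
  rw [hx.card]
  exact h1 (by rw [hpA]; exact hA)

/-- **Adjacent harmless points.** -/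
theorem pair (h : Irr U T) {x z : ℂ} {A A' : Set (Fin k)} (hx : Harm T x A) (hz : Harm T z A')
    (hxz : dist x z = 1) (hmin : ∀ s, s ⊆ T x → s ≠ T x → ¬ ∀ᶠ w in 𝓝 x, Suf U s w)
    (hC : T z \ A' ⊆ T x) : T z \ A' = A ∨ T z \ A' = T x \ A := by
  classical
  by_contra hcon
  rw [not_or] at hcon
  obtain ⟨hne1, hne2⟩ := hcon
  have hcC := hz.cardC
  have hcA := hx.cardA
  have hcX := hx.cardC
  -- a colour of the complementary pair in `A`
  obtain ⟨a, haC, haA⟩ : ∃ a ∈ T z \ A', a ∈ A := by
    by_contra hno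
    push Not at hno
    exact hne2 (Set.eq_of_subset_of_ncard_le (fun i hi => ⟨hC hi, hno i hi⟩)
      (by rw [hcX, hcC]) (Set.toFinite _))
  obtain ⟨b, hbC, hbA⟩ : ∃ b ∈ T z \ A', b ∉ A := by
    by_contra hno
    push Not at hno
    exact hne1 (Set.eq_of_subset_of_ncard_le (fun i hi => hno i hi)
      (by rw [hcA, hcC]) (Set.toFinite _))
  have hab : a ≠ b := fun h1 => hbA (h1 ▸ haA)
  have hCab : T z \ A' = {a, b} := by
    refine (Set.eq_of_subset_of_ncard_le ?_ ?_ (Set.toFinite _)).symm
    · rintro i (rfl | rfl) <;> assumption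
    · rw [hcC, Set.ncard_pair hab]
  -- the other colour of `T x \ A`
  obtain ⟨d, hdX, hdb⟩ : ∃ d ∈ T x \ A, d ≠ b := by
    by_contra hno
    push Not at hno
    have h1 : T x \ A ⊆ {b} := fun i hi => hno i hi
    have h2 := Set.ncard_le_ncard h1 (Set.toFinite _)
    rw [hcX, Set.ncard_singleton] at h2
    omega
  have hda : d ≠ a := fun h1 => hdX.2 (h1 ▸ haA)
  have had : a ≠ d := hda.symm
  -- the palette of `x`
  obtain ⟨a', ha', haa'⟩ : ∃ a' ∈ A, a' ≠ a := by
    by_contra hno
    push Not at hno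
    have h1 : A ⊆ {a} := fun i hi => hno i hi
    have h2 := Set.ncard_le_ncard h1 (Set.toFinite _)
    rw [hcA, Set.ncard_singleton] at h2
    omega
  have hA : A = {a, a'} := by
    refine (Set.eq_of_subset_of_ncard_le ?_ ?_ (Set.toFinite _)).symm
    · rintro i (rfl | rfl) <;> assumption
    · rw [hcA, Set.ncard_pair haa'.symm]
  have hX : T x \ A = {b, d} := by
    refine (Set.eq_of_subset_of_ncard_le ?_ ?_ (Set.toFinite _)).symm
    · rintro i (rfl | rfl)
      · exact ⟨hC hbC, hbA⟩
      · exact hdX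
    · rw [hcX, Set.ncard_pair hdb.symm]
  have hTx : ∀ i ∈ T x, i = a ∨ i = a' ∨ i = b ∨ i = d := by
    intro i hi
    by_cases hiA : i ∈ A
    · rw [hA] at hiA
      rcases hiA with h1 | h1
      · exact Or.inl h1
      · exact Or.inr (Or.inl h1)
    · have : i ∈ T x \ A := ⟨hi, hiA⟩
      rw [hX] at this
      rcases this with h1 | h1
      · exact Or.inr (Or.inr (Or.inl h1))
      · exact Or.inr (Or.inr (Or.inr h1))
  have hdT : d ∈ T x := hdX.1
  -- `a` meets other colours only at points with `d`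
  have hs : ∀ᶠ w in 𝓝 x, ∀ m ∈ T w, a ∈ T w → m = a ∨ d ∈ T w := by
    filter_upwards [h.nhd x, hx.layer h, hz.cd h hxz] with w h1 h2 h3 m hm haw
    by_contra hcon
    push Not at hcon
    obtain ⟨hma, hdw⟩ := hcon
    have ha'w : a' ∉ T w := by
      intro h4
      refine hdw ?_
      rw [h2 (by rw [hA]; rintro i (rfl | rfl) <;> assumption)]
      exact hdT
    have hTw : T w ⊆ {a, b} := by
      intro i hi
      rcases hTx i (h1 hi) with rfl | rfl | rfl | rfl
      · exact Or.inl rfl
      · exact absurd hi ha'w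
      · exact Or.inr rfl
      · exact absurd hi hdw
    have hbw : b ∈ T w := by
      rcases hTw hm with h4 | h4
      · exact absurd h4 hma
      · exact h4 ▸ hm
    have hCw : T z \ A' ⊆ T w := by
      rw [hCab]
      rintro i (rfl | rfl) <;> assumption
    have hwz : dist w z = 1 := by
      refine (h3 hCw).resolve_right fun h4 => ?_
      have h5 := Set.ncard_le_ncard hTw (Set.toFinite _)
      rw [Set.ncard_pair hab] at h5
      omega
    have h6 := hz.h1 w hwz (hTw.trans (by rw [← hCab]; exact sdiff_subset))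
    obtain ⟨p, hp⟩ : A'.Nonempty := by
      rw [← Set.ncard_pos (Set.toFinite _), hz.cardA]
      norm_num
    have h7 : p ∈ T z \ A' := by
      rw [hCab]
      exact hTw (h6 hp)
    exact h7.2 hp
  -- contradiction with minimality
  obtain ⟨p, hp, hJ⟩ := hx.arc
  have hJ' : ∀ᶠ q in 𝓝[sphere x 1] p, a ∈ Pal U q :=
    hJ.mono fun q hq => h.sub q (by rw [hq]; exact haA)
  refine hmin (T x \ {a}) sdiff_subset (fun hcon => ?_)
    (h.suf_of_single had hdT (h.sole (h.sub x hdT) hs hp hJ'))
  have : a ∈ T x \ {a} := by rw [hcon]; exact hC haC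
  exact this.2 rfl

end Harm

end Vale.Agent.P032.Six
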